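import Mathlib

open MvPolynomial

namespace Vale.Agent.Lib.P295

/-- `f` is a coordinate of the polynomial ring `ℂ[x_i : i ∈ σ]`: some `ℂ`-algebra automorphism
sends `f` to one of the variables. -/
def IsCoordinate {σ : Type} (f : MvPolynomial σ ℂ) : Prop :=
  ∃ (φ : MvPolynomial σ ℂ ≃ₐ[ℂ] MvPolynomial σ ℂ) (i : σ), φ f = X i

/-- `f ∈ ℂ[x_1,…,x_n]` is an `m`-stable coordinate: it is a coordinate of the polynomial ring
in the `n + m` variables indexed by `Fin n ⊕ Fin m`. -/
def IsMStableCoordinate {n : ℕ} (m : ℕ) (f : MvPolynomial (Fin n) ℂ) : Prop :=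
  IsCoordinate (rename (Sum.inl : Fin n → Fin n ⊕ Fin m) f)

/-- `f` is a stable coordinate: an `m`-stable coordinate for some `m ≥ 1`. -/
def IsStableCoordinate {n : ℕ} (f : MvPolynomial (Fin n) ℂ) : Prop :=
  ∃ m : ℕ, 1 ≤ m ∧ IsMStableCoordinate m f

/-- chain rule for algebra endomorphisms of a polynomial ring -/
theorem pderiv_algHom {σ : Type} [Fintype σ] (φ : MvPolynomial σ ℂ →ₐ[ℂ] MvPolynomial σ ℂ)
    (k : σ) (h : MvPolynomial σ ℂ) :
    pderiv k (φ h) = ∑ i, φ (pderiv i h) * pderiv k (φ (X i)) := by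
  classical
  induction h using MvPolynomial.induction_on with
  | C a =>
    have : φ (C a) = C a := by
      simp
    simp [this]
  | add p q hp hq =>
    simp only [map_add, hp, hq, add_mul, Finset.sum_add_distrib]
  | mul_X p n hp =>
    simp only [map_mul, Derivation.leibniz, smul_eq_mul, hp, map_add, pderiv_X, add_mul,
      Finset.sum_add_distrib]
    have h1 : ∑ x, φ p * φ ((Pi.single x 1 : σ → MvPolynomial σ ℂ) n) * pderiv k (φ (X x))
        = φ p * pderiv k (φ (X n)) := by
      rw [Finset.sum_eq_single n]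
      · simp
      · intro b _ hb
        simp [Pi.single_eq_of_ne (Ne.symm hb)]
      · simp
    rw [h1, Finset.mul_sum]
    have h5 : ∀ x, φ (X n) * (φ (pderiv x p) * pderiv k (φ (X x)))
        = φ (X n) * φ (pderiv x p) * pderiv k (φ (X x)) := fun x => (mul_assoc _ _ _).symm
    simp only [h5]

/-- The gradient of a coordinate vanishes nowhere. -/
theorem IsCoordinate.exists_pderiv_ne_zero {σ : Type} [Fintype σ] {F : MvPolynomial σ ℂ}
    (hF : IsCoordinate F) (a : σ → ℂ) : ∃ i, eval a (pderiv i F) ≠ 0 := by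
  classical
  obtain ⟨φ, j, hφ⟩ := hF
  by_contra hcon
  push Not at hcon
  have h1 := pderiv_algHom (φ : MvPolynomial σ ℂ →ₐ[ℂ] MvPolynomial σ ℂ) j F
  have h2 : (φ : MvPolynomial σ ℂ →ₐ[ℂ] MvPolynomial σ ℂ) F = X j := hφ
  rw [h2, pderiv_X_self] at h1
  have h3 := congrArg φ.symm h1
  simp only [map_one, map_sum, map_mul, AlgEquiv.coe_toAlgHom, AlgEquiv.symm_apply_apply] at h3
  have h4 := congrArg (eval a) h3
  simp only [map_one, map_sum, map_mul, hcon, zero_mul, Finset.sum_const_zero] at h4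
  exact one_ne_zero h4

/-- `c x_i + G` with `c ≠ 0` and `G` free of `x_i` is a coordinate. -/
theorem isCoordinate_of_linear {σ : Type} [DecidableEq σ] (i : σ) (c : ℂ) (hc : c ≠ 0)
    (G : MvPolynomial σ ℂ)
    (hG : ∀ P : MvPolynomial σ ℂ, aeval (Function.update X i P) G = G) :
    IsCoordinate (C c * X i + G) := by
  let α : MvPolynomial σ ℂ →ₐ[ℂ] MvPolynomial σ ℂ :=
    aeval (Function.update X i (C c⁻¹ * (X i - G)))
  let β : MvPolynomial σ ℂ →ₐ[ℂ] MvPolynomial σ ℂ :=
    aeval (Function.update X i (C c * X i + G))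
  have hcc : (C c : MvPolynomial σ ℂ) * C c⁻¹ = 1 := by
    rw [← C_mul, mul_inv_cancel₀ hc, C_1]
  have hcc' : (C c⁻¹ : MvPolynomial σ ℂ) * C c = 1 := by
    rw [mul_comm, hcc]
  have hαi : α (X i) = C c⁻¹ * (X i - G) := by simp [α]
  have hβi : β (X i) = C c * X i + G := by simp [β]
  have hαG : α G = G := hG _
  have hβG : β G = G := hG _
  have hαC : ∀ a : ℂ, α (C a) = C a := fun a => by simp [α]
  have hβC : ∀ a : ℂ, β (C a) = C a := fun a => by simp [β]
  have hαF : α (C c * X i + G) = X i := by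
    rw [map_add, map_mul, hαi, hαG, hαC, ← mul_assoc, hcc]
    ring
  have h1 : α.comp β = AlgHom.id ℂ _ := by
    apply MvPolynomial.algHom_ext
    intro j
    by_cases hj : j = i
    · subst hj
      simp only [AlgHom.comp_apply, hβi, hαF, AlgHom.id_apply]
    · simp [α, β, Function.update_of_ne hj]
  have h2 : β.comp α = AlgHom.id ℂ _ := by
    apply MvPolynomial.algHom_ext
    intro j
    by_cases hj : j = i
    · subst hj
      simp only [AlgHom.comp_apply, hαi, map_mul, map_sub, hβi, hβG, hβC, AlgHom.id_apply]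
      rw [add_sub_cancel_right, ← mul_assoc, hcc', one_mul]
    · simp [α, β, Function.update_of_ne hj]
  exact ⟨AlgEquiv.ofAlgHom α β h1 h2, i, hαF⟩

end Vale.Agent.Lib.P295
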